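import Vale.Agent.P207.Q.H892.Haar

/-!
# P207, block A7: the invariant measure of a compact bundle with a compact structure group
-/

open scoped Topology ENNReal
open MeasureTheory Set Filter

noncomputable section

set_option linter.unusedSectionVars false

namespace Vale.Agent.P207.Q.H892

section Avg

variable (G : Type*) [Group G] [TopologicalSpace G] [IsTopologicalGroup G] [CompactSpace G]
  [MeasurableSpace G] [BorelSpace G] {P : Type*} [TopologicalSpace P] [MulAction G P]

/-- the average over the orbit -/
def avg (f : P → ℝ) (p : P) : ℝ := ∫ A, f (A • p) ∂haarP G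

theorem avg_smul (f : P → ℝ) (B : G) (p : P) : avg G f (B • p) = avg G f p := by
  unfold avg
  have h1 := integral_mul_right_eq_self (μ := haarP G) (fun A => f (A • p)) B
  rw [← h1]
  refine integral_congr_ae (Eventually.of_forall fun A => ?_)
  change f (A • B • p) = f ((A * B) • p)
  rw [mul_smul]

theorem avg_comp_smul (f : P → ℝ) (B : G) (p : P) : avg G (fun q => f (B • q)) p = avg G f p := by
  unfold avg
  have h1 := integral_mul_left_eq_self (μ := haarP G) (fun A => f (A • p)) B
  rw [← h1]
  refine integral_congr_ae (Eventually.of_forall fun A => ?_)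
  change f (B • A • p) = f ((B * A) • p)
  rw [mul_smul]

variable [SecondCountableTopology G] [ContinuousSMul G P]

theorem integrable_smul {f : P → ℝ} (hf : Continuous f) (p : P) :
    Integrable (fun A : G => f (A • p)) (haarP G) :=
  (hf.comp (continuous_id.smul continuous_const)).integrable_of_hasCompactSupport
    (HasCompactSupport.of_compactSpace _)

theorem continuous_avg [FirstCountableTopology P] [LocallyCompactSpace P] {f : P → ℝ}
    (hf : Continuous f) :
    Continuous (avg G f) := by
  have h1 : Continuous (fun q : P × G => f (q.2 • q.1)) :=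
    hf.comp (continuous_snd.smul continuous_fst)
  have h2 := continuous_parametric_integral_of_continuous (μ := haarP G)
    (f := fun (p : P) (A : G) => f (A • p)) h1 isCompact_univ
  simp only [Measure.restrict_univ] at h2
  exact h2

theorem avg_add {f g : P → ℝ} (hf : Continuous f) (hg : Continuous g) (p : P) :
    avg G (f + g) p = avg G f p + avg G g p :=
  integral_add (integrable_smul G hf p) (integrable_smul G hg p)

theorem avg_const_mul (c : ℝ) (f : P → ℝ) (p : P) : avg G (c • f) p = c * avg G f p :=
  integral_const_mul c _

theorem avg_nonneg {f : P → ℝ} (h : ∀ p, 0 ≤ f p) (p : P) : 0 ≤ avg G f p :=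
  integral_nonneg fun _ => h _

theorem avg_const (c : ℝ) (p : P) : avg G (fun _ => c) p = c := by
  simp [avg]

end Avg

/-- `π : P → M` is a bundle whose fibres are the orbits of the group `G` -/
structure IsBdl (G : Type*) {P M : Type*} [SMul G P] [TopologicalSpace P] [TopologicalSpace M]
    (π : P → M) : Prop where
  cont : Continuous π
  surj : Function.Surjective π
  inv : ∀ (A : G) (p : P), π (A • p) = π p
  trans : ∀ p q : P, π p = π q → ∃ A : G, A • p = q

section Bundle

variable {G : Type*} [Group G] [TopologicalSpace G] [IsTopologicalGroup G] [CompactSpace G]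
  [MeasurableSpace G] [BorelSpace G] [SecondCountableTopology G]
  {P M : Type*} [TopologicalSpace P] [MulAction G P] [ContinuousSMul G P]
  [CompactSpace P] [T2Space P] [SecondCountableTopology P]
  [TopologicalSpace M] [T2Space M] {π : P → M}

/-- the fibre average, as a function on the base -/
def avgM (h : IsBdl G π) (f : P → ℝ) (x : M) : ℝ := avg G f (Function.surjInv h.surj x)

theorem avgM_apply (h : IsBdl G π) (f : P → ℝ) (p : P) : avgM h f (π p) = avg G f p := by
  unfold avgM
  obtain ⟨A, hA⟩ := h.trans p (Function.surjInv h.surj (π p))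
    (Function.surjInv_eq h.surj (π p)).symm
  rw [← hA, avg_smul]

theorem continuous_avgM (h : IsBdl G π) {f : P → ℝ} (hf : Continuous f) :
    Continuous (avgM h f) := by
  have h1 : Topology.IsQuotientMap π := h.cont.isClosedMap.isQuotientMap h.cont h.surj
  rw [h1.continuous_iff]
  have h2 : avgM h f ∘ π = avg G f := funext fun p => avgM_apply h f p
  rw [h2]
  exact continuous_avg G hf

variable [CompactSpace M] [MeasurableSpace M] [BorelSpace M] [MeasurableSpace P] [BorelSpace P]

theorem integrable_avgM (μ : Measure M) [IsFiniteMeasure μ] (h : IsBdl G π)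
    {f : P → ℝ} (hf : Continuous f) : Integrable (avgM h f) μ :=
  (continuous_avgM h hf).integrable_of_hasCompactSupport (HasCompactSupport.of_compactSpace _)

/-- the functional -/
def bdlFun (μ : Measure M) [IsFiniteMeasure μ] (h : IsBdl G π) :
    CompactlySupportedContinuousMap P ℝ →ₚ[ℝ] ℝ :=
  PositiveLinearMap.mk₀
    { toFun := fun f => ∫ x, avgM h f x ∂μ
      map_add' := by
        intro f f'
        refine Eq.trans ?_ (integral_add (integrable_avgM μ h f.continuous)
          (integrable_avgM μ h f'.continuous))
        refine integral_congr_ae (Eventually.of_forall fun x => ?_)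
        exact avg_add G f.continuous f'.continuous _
      map_smul' := by
        intro c f
        simp only [RingHom.id_apply, smul_eq_mul]
        rw [← integral_const_mul]
        refine integral_congr_ae (Eventually.of_forall fun x => ?_)
        exact avg_const_mul G c f _ }
    (by
      intro f hf
      exact integral_nonneg fun x => avg_nonneg G hf _)

/-- the bundle measure -/
def bdlMeasure (μ : Measure M) [IsFiniteMeasure μ] (h : IsBdl G π) : Measure P :=
  RealRMK.rieszMeasure (bdlFun μ h)

theorem integral_bdlMeasure (μ : Measure M) [IsFiniteMeasure μ] (h : IsBdl G π) {f : P → ℝ}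
    (hf : Continuous f) : ∫ p, f p ∂bdlMeasure μ h = ∫ x, avgM h f x ∂μ :=
  RealRMK.integral_rieszMeasure (bdlFun μ h) ⟨⟨f, hf⟩, HasCompactSupport.of_compactSpace _⟩

instance instProbBdl (μ : Measure M) [IsProbabilityMeasure μ] (h : IsBdl G π) :
    IsProbabilityMeasure (bdlMeasure μ h) := by
  have h1 : ∫ _, (1 : ℝ) ∂bdlMeasure μ h = 1 := by
    rw [integral_bdlMeasure μ h continuous_const]
    have h2 : ∀ x, avgM h (fun _ : P => (1 : ℝ)) x = 1 := fun x => avg_const G 1 _
    simp [h2]
  refine ⟨?_⟩
  simp only [integral_const, smul_eq_mul, mul_one] at h1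
  rw [Measure.real, ENNReal.toReal_eq_one_iff] at h1
  exact h1

/-- two finite measures with the same integrals of continuous functions are equal -/
theorem measure_ext {m m' : Measure P} [IsFiniteMeasure m] [IsFiniteMeasure m']
    (h : ∀ f : P → ℝ, Continuous f → ∫ p, f p ∂m = ∫ p, f p ∂m') : m = m' := by
  have : TopologicalSpace.MetrizableSpace P := inferInstance
  exact ext_of_forall_integral_eq_of_IsFiniteMeasure fun f => h f f.continuous

/-- uniqueness of the bundle measure -/
theorem eq_bdlMeasure (μ : Measure M) [IsProbabilityMeasure μ] (h : IsBdl G π)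
    {m : Measure P} [IsFiniteMeasure m]
    (hm : ∀ f : P → ℝ, Continuous f → ∫ p, f p ∂m = ∫ x, avgM h f x ∂μ) :
    m = bdlMeasure μ h :=
  measure_ext fun f hf => (hm f hf).trans (integral_bdlMeasure μ h hf).symm

/-- the bundle measure is invariant under the structure group -/
theorem measurePreserving_smul (μ : Measure M) [IsProbabilityMeasure μ] (h : IsBdl G π) (A : G) :
    MeasurePreserving (fun p : P => A • p) (bdlMeasure μ h) (bdlMeasure μ h) := by
  have hc : Continuous (fun p : P => A • p) := continuous_const_smul A
  refine ⟨hc.measurable, ?_⟩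
  have : IsProbabilityMeasure (Measure.map (fun p : P => A • p) (bdlMeasure μ h)) :=
    Measure.isProbabilityMeasure_map hc.measurable.aemeasurable
  refine measure_ext fun f hf => ?_
  rw [integral_map hc.measurable.aemeasurable hf.aestronglyMeasurable, integral_bdlMeasure μ h hf]
  refine (integral_bdlMeasure μ h (hf.comp hc)).trans ?_
  refine integral_congr_ae (Eventually.of_forall fun x => ?_)
  exact avg_comp_smul G f A _

/-- the bundle measure projects to the measure of the base -/
theorem measurePreserving_proj (μ : Measure M) [IsProbabilityMeasure μ] (h : IsBdl G π)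
    [SecondCountableTopology M] : MeasurePreserving π (bdlMeasure μ h) μ := by
  refine ⟨h.cont.measurable, ?_⟩
  have : IsProbabilityMeasure (Measure.map π (bdlMeasure μ h)) :=
    Measure.isProbabilityMeasure_map h.cont.measurable.aemeasurable
  refine measure_ext fun f hf => ?_
  rw [integral_map h.cont.measurable.aemeasurable hf.aestronglyMeasurable]
  refine (integral_bdlMeasure μ h (hf.comp h.cont)).trans ?_
  refine integral_congr_ae (Eventually.of_forall fun x => ?_)
  change avg G (f ∘ π) (Function.surjInv h.surj x) = f x
  have h1 : ∀ A : G, (f ∘ π) (A • Function.surjInv h.surj x) = f x := by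
    intro A
    simp only [Function.comp_apply, h.inv, Function.surjInv_eq h.surj x]
  unfold avg
  simp only [h1, integral_const, probReal_univ, one_smul]

/-- an invariant measure is the bundle measure of its projection -/
theorem eq_bdlMeasure_of_inv (μ : Measure M) [IsProbabilityMeasure μ] (h : IsBdl G π)
    {m : Measure P} [IsProbabilityMeasure m]
    (hinv : ∀ A : G, MeasurePreserving (fun p : P => A • p) m m)
    (hproj : MeasurePreserving π m μ) : m = bdlMeasure μ h := by
  refine eq_bdlMeasure μ h fun f hf => ?_
  have h1 : ∀ A : G, ∫ p, f (A • p) ∂m = ∫ p, f p ∂m := by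
    intro A
    have hc : Continuous (fun p : P => A • p) := continuous_const_smul A
    have h2 := integral_map (μ := m) hc.measurable.aemeasurable
      (f := f) hf.aestronglyMeasurable
    rw [(hinv A).map_eq] at h2
    exact h2.symm
  have h3 : ∫ A, (∫ p, f (A • p) ∂m) ∂haarP G = ∫ p, (∫ A, f (A • p) ∂haarP G) ∂m := by
    refine integral_integral_swap (f := fun (A : G) (p : P) => f (A • p)) ?_
    have hc : Continuous (fun q : G × P => f (q.1 • q.2)) :=
      hf.comp (continuous_fst.smul continuous_snd)
    exact hc.integrable_of_hasCompactSupport (HasCompactSupport.of_compactSpace _)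
  simp only [h1, integral_const, probReal_univ, one_smul] at h3
  rw [h3]
  have h4 : ∀ p, (∫ A, f (A • p) ∂haarP G) = avgM h f (π p) := fun p => (avgM_apply h f p).symm
  simp only [h4]
  have h5 := integral_map (μ := m) h.cont.measurable.aemeasurable
    (f := avgM h f) (continuous_avgM h hf).aestronglyMeasurable
  rw [hproj.map_eq] at h5
  exact h5.symm

/-- lifts of measure preserving maps of the base which commute with the group preserve the
bundle measure -/
theorem measurePreserving_lift (μ : Measure M) [IsProbabilityMeasure μ] (h : IsBdl G π)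
    [SecondCountableTopology M] {Φ : P → P} (hΦ : Continuous Φ)
    (hcomm : ∀ (A : G) (p : P), Φ (A • p) = A • Φ p) {φ : M → M}
    (hφ : MeasurePreserving φ μ μ) (hcov : ∀ p, π (Φ p) = φ (π p)) :
    MeasurePreserving Φ (bdlMeasure μ h) (bdlMeasure μ h) := by
  refine ⟨hΦ.measurable, ?_⟩
  have hprob : IsProbabilityMeasure (Measure.map Φ (bdlMeasure μ h)) :=
    Measure.isProbabilityMeasure_map hΦ.measurable.aemeasurable
  refine eq_bdlMeasure_of_inv μ h (fun A => ?_) ?_
  · have hc : Continuous (fun p : P => A • p) := continuous_const_smul A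
    refine ⟨hc.measurable, ?_⟩
    rw [Measure.map_map hc.measurable hΦ.measurable]
    have h1 : (fun p : P => A • p) ∘ Φ = Φ ∘ (fun p : P => A • p) :=
      funext fun p => (hcomm A p).symm
    rw [h1, ← Measure.map_map hΦ.measurable hc.measurable,
      (measurePreserving_smul μ h A).map_eq]
  · refine ⟨h.cont.measurable, ?_⟩
    rw [Measure.map_map h.cont.measurable hΦ.measurable]
    have h1 : π ∘ Φ = φ ∘ π := funext hcov
    rw [h1, ← Measure.map_map hφ.measurable h.cont.measurable,
      (measurePreserving_proj μ h).map_eq, hφ.map_eq]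

end Bundle

/-- the Haar probability measure of a compact group is invariant under inversion -/
theorem haarP_inv (G : Type*) [Group G] [TopologicalSpace G] [IsTopologicalGroup G]
    [CompactSpace G] [MeasurableSpace G] [BorelSpace G] : (haarP G).inv = haarP G := by
  have h := Measure.isMulInvariant_eq_smul_of_compactSpace ((haarP G).inv) (haarP G)
  have h1 : (haarP G).inv univ = 1 := by
    rw [Measure.inv_apply, inv_univ, measure_univ]
  rw [h] at h1
  rw [Measure.smul_apply, measure_univ] at h1
  have h2 : Measure.haarScalarFactor ((haarP G).inv) (haarP G) = 1 := by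
    have h3 : ((Measure.haarScalarFactor ((haarP G).inv) (haarP G) : NNReal) : ℝ≥0∞) = 1 := by
      simpa [ENNReal.smul_def] using h1
    exact_mod_cast h3
  rw [h, h2, one_smul]

theorem integral_haarP_inv (G : Type*) [Group G] [TopologicalSpace G] [IsTopologicalGroup G]
    [CompactSpace G] [MeasurableSpace G] [BorelSpace G] (F : G → ℝ) :
    ∫ A, F A⁻¹ ∂haarP G = ∫ A, F A ∂haarP G := by
  have : (haarP G).IsInvInvariant := ⟨haarP_inv G⟩
  exact integral_inv_eq_self F (haarP G)

/-- full support of the bundle measure -/
theorem bdlMeasure_isOpenPos {G : Type*} [Group G] [TopologicalSpace G] [IsTopologicalGroup G]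
    [CompactSpace G] [MeasurableSpace G] [BorelSpace G] [SecondCountableTopology G]
    {P M : Type*} [TopologicalSpace P] [MulAction G P] [ContinuousSMul G P]
    [CompactSpace P] [T2Space P] [SecondCountableTopology P]
    [TopologicalSpace M] [T2Space M] {π : P → M} [CompactSpace M] [MeasurableSpace M]
    [BorelSpace M] [MeasurableSpace P] [BorelSpace P]
    (μ : Measure M) [IsProbabilityMeasure μ] [μ.IsOpenPosMeasure] (h : IsBdl G π) :
    (bdlMeasure μ h).IsOpenPosMeasure := by
  refine ⟨fun U hU hne h0 => ?_⟩
  obtain ⟨p, hp⟩ := hne
  obtain ⟨f, hf0, hf1, hf01⟩ := exists_continuous_zero_one_of_isClosed (hU.isClosed_compl)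
    (isClosed_singleton (x := p)) (by
      rw [disjoint_singleton_right]; exact fun h => h hp)
  have hfc : Continuous f := f.continuous
  have h1 : ∫ q, f q ∂bdlMeasure μ h = 0 := by
    refine integral_eq_zero_of_ae ?_
    have h2 : ∀ᵐ q ∂bdlMeasure μ h, q ∉ U := measure_eq_zero_iff_ae_notMem.1 h0
    filter_upwards [h2] with q hq
    exact hf0 hq
  rw [integral_bdlMeasure μ h hfc] at h1
  have hc := continuous_avgM h hfc
  have hnn : ∀ q, 0 ≤ f q := fun q => (hf01 q).1
  have h3 : avgM h f =ᵐ[μ] 0 := (integral_eq_zero_iff_of_nonneg
    (fun x => avg_nonneg G hnn _) (integrable_avgM μ h hfc)).1 h1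
  have h4 : avgM h f (π p) = 0 :=
    congrFun ((Continuous.ae_eq_iff_eq μ hc continuous_const).1 h3) (π p)
  rw [avgM_apply] at h4
  have h5 : (fun A : G => f (A • p)) =ᵐ[haarP G] 0 :=
    (integral_eq_zero_iff_of_nonneg (fun A => hnn _) (integrable_smul G hfc p)).1 h4
  have hcs : Continuous (fun A : G => f (A • p)) :=
    hfc.comp (continuous_id.smul continuous_const)
  have h6 : f ((1 : G) • p) = 0 := congrFun ((Continuous.ae_eq_iff_eq (haarP G)
    hcs continuous_const).1 h5) 1
  rw [one_smul] at h6
  have h7 : f p = 1 := hf1 rfl
  rw [h7] at h6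
  exact one_ne_zero h6

end Vale.Agent.P207.Q.H892
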