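import Vale.Agent.P207.Q.H892.Codazzi
import Vale.Agent.P207.Q.H413.Rigid

/-!
# P207: the contracted Codazzi equation, for continuous functions on a compact space
-/

open Filter Topology MeasureTheory

noncomputable section

namespace Vale.Agent.P207.Q.H892

open Vale.Agent.P207.Q.H413

variable {P : Type*} [TopologicalSpace P] [CompactSpace P] [MeasurableSpace P] [BorelSpace P]
  {m : Measure P} [IsFiniteMeasure m]

/-- The Codazzi defect vanishes. -/
theorem czero_of_curv [m.IsOpenPosMeasure] {c : Cal (intL m)} (C : Curv c)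
    {U : Fin 2 → Fin 2 → C(P, ℝ)} {dU : Fin 2 → Fin 2 → Idx → C(P, ℝ)}
    (jU : ∀ i j, Jet c (U i j) (dU i j)) (symU : U 1 0 = U 0 1)
    (ric : ∀ i j, dU i j .X = C.K i j - ∑ k, U i k * U k j)
    (R00 : dU 0 0 .R = 2 * U 0 1) (R01 : dU 0 1 .R = U 1 1 - U 0 0)
    (R11 : dU 1 1 .R = - 2 * U 0 1)
    (wpx : ∀ F F' : C(P, ℝ), WX c F F' → intL m (F * F') = 0)
    {lam : ℝ} (hlam : 0 < lam)
    (hpos : ∀ x a b, lam * (a ^ 2 + b ^ 2) ≤ U 0 0 x * a ^ 2 + 2 * U 0 1 x * (a * b) +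
      U 1 1 x * b ^ 2) :
    Vale.Agent.P207.Q.H892.c0 C U dU = 0 ∧ Vale.Agent.P207.Q.H892.c1 C U dU = 0 := by
  have h := codazzi_integral C jU symU ric R00 R01 R11 wpx
  set f0 := Vale.Agent.P207.Q.H892.c0 C U dU with hf0
  set f1 := Vale.Agent.P207.Q.H892.c1 C U dU with hf1
  set F : C(P, ℝ) := (2 * (U 0 0 + U 1 1) - U 0 0) * (f0 * f0) - 2 * (U 0 1 * (f0 * f1))
    + (2 * (U 0 0 + U 1 1) - U 1 1) * (f1 * f1) with hF
  have hFx : ∀ x, 3 * lam * (f0 x ^ 2 + f1 x ^ 2) ≤ F x := by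
    intro x
    have e : F x = (U 0 0 x + U 1 1 x) * (f0 x ^ 2 + f1 x ^ 2) +
        (U 0 0 x * (f1 x) ^ 2 + 2 * U 0 1 x * ((f1 x) * (- f0 x)) + U 1 1 x * (- f0 x) ^ 2) := by
      have h2 : (2 : C(P, ℝ)) x = 2 := rfl
      simp only [hF, ContinuousMap.add_apply, ContinuousMap.sub_apply, ContinuousMap.mul_apply, h2]
      ring
    have h1 := hpos x (f1 x) (- f0 x)
    have h2 := hpos x 1 0
    have h3 := hpos x 0 1
    rw [e]
    nlinarith [sq_nonneg (f0 x), sq_nonneg (f1 x)]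
  have hF0 : ∀ x, 0 ≤ F x := fun x => le_trans (by positivity) (hFx x)
  have hz : F = 0 := by
    have h1 : ∫ x, F x ∂m = 0 := (intL_apply F).symm.trans h
    have hint : Integrable (fun x => F x) m :=
      F.continuous.integrable_of_hasCompactSupport (HasCompactSupport.of_compactSpace _)
    have h2 := (integral_eq_zero_iff_of_nonneg hF0 hint).1 h1
    ext x
    exact congrFun ((Continuous.ae_eq_iff_eq m F.continuous continuous_const).1 h2) x
  have key : ∀ x, f0 x = 0 ∧ f1 x = 0 := by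
    intro x
    have h1 := hFx x
    rw [hz, ContinuousMap.zero_apply] at h1
    have h2 : f0 x ^ 2 + f1 x ^ 2 ≤ 0 := by
      by_contra hcon
      rw [not_le] at hcon
      nlinarith
    have h3 : f0 x ^ 2 = 0 := le_antisymm (by nlinarith [sq_nonneg (f1 x)]) (sq_nonneg _)
    have h4 : f1 x ^ 2 = 0 := le_antisymm (by nlinarith [sq_nonneg (f0 x)]) (sq_nonneg _)
    exact ⟨by simpa using h3, by simpa using h4⟩
  exact ⟨by ext x; exact (key x).1, by ext x; exact (key x).2⟩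

/-- **Contracted Codazzi equation** (the field `cod` of `Data`). -/
theorem cod_of_curv [m.IsOpenPosMeasure] {c : Cal (intL m)} (C : Curv c)
    {U : Fin 2 → Fin 2 → C(P, ℝ)} {dU : Fin 2 → Fin 2 → Idx → C(P, ℝ)}
    (jU : ∀ i j, Jet c (U i j) (dU i j)) (symU : U 1 0 = U 0 1) (symd : ∀ k, dU 1 0 k = dU 0 1 k)
    (ric : ∀ i j, dU i j .X = C.K i j - ∑ k, U i k * U k j)
    (R00 : dU 0 0 .R = 2 * U 0 1) (R01 : dU 0 1 .R = U 1 1 - U 0 0)
    (R11 : dU 1 1 .R = - 2 * U 0 1)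
    (wpx : ∀ F F' : C(P, ℝ), WX c F F' → intL m (F * F') = 0)
    {lam : ℝ} (hlam : 0 < lam)
    (hpos : ∀ x a b, lam * (a ^ 2 + b ^ 2) ≤ U 0 0 x * a ^ 2 + 2 * U 0 1 x * (a * b) +
      U 1 1 x * b ^ 2) (i : Fin 2) :
    ((c.Y (.V i) (C.E22 + C.E11) : c.S) : C(P, ℝ)) =
      - 2 * (∑ j, (dU i j (.H j) + ∑ l, U j l * dU i j (.V l))
        - ∑ j, (dU j j (.H i) + ∑ l, U i l * dU j j (.V l))) := by
  obtain ⟨hs0, hs1⟩ := czero_of_curv C jU symU ric R00 R01 R11 wpx hlam hpos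
  rw [Vale.Agent.P207.Q.H892.c0] at hs0
  rw [Vale.Agent.P207.Q.H892.c1] at hs1
  fin_cases i
  · have e : ((c.Y (.V 0) (C.E22 + C.E11) : c.S) : C(P, ℝ)) = - (C.E01 + C.E01) := by
      rw [map_add, C.V0E22, C.V0E11]; simp
    refine e.trans ?_
    simp only [Fin.sum_univ_two, symU, Fin.zero_eta]
    linear_combination 2 * hs0
  · have e : ((c.Y (.V 1) (C.E22 + C.E11) : c.S) : C(P, ℝ)) = - (C.E02 + C.E02) := by
      rw [map_add, C.V1E22, C.V1E11]; simp
    refine e.trans ?_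
    simp only [Fin.sum_univ_two, symU, symd, Fin.mk_one]
    linear_combination 2 * hs1

end Vale.Agent.P207.Q.H892
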