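import Vale.Agent.P207.Q.H413.Cal

/-!
# P207: the contracted Codazzi equation of the unstable Riccati tensor, by one integral identity

`E` is the curvature operator of the 3-manifold read in the frame, a symmetric matrix of smooth
functions: `K₀₀ = E₂₂`, `K₁₁ = E₁₁`, `K₀₁ = -E₁₂` (the last two indices of the frame are the
indices `0, 1` of `Fin 2`).
-/

open Filter Topology

noncomputable section

namespace Vale.Agent.P207.Q.H892

open Vale.Agent.P207.Q.H413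

variable {A : Type*} [NormedCommRing A] [NormedAlgebra ℝ A] {I : A →L[ℝ] ℝ}

/-- The curvature of the frame bundle of a 3-manifold: vertical derivatives, contracted second
Bianchi identity, brackets of the horizontal fields. -/
structure Curv (c : Cal I) where
  E00 : c.S
  E01 : c.S
  E02 : c.S
  E11 : c.S
  E12 : c.S
  E22 : c.S
  V0E01 : c.Y (.V 0) E01 = E11 - E00
  V0E02 : c.Y (.V 0) E02 = E12
  V0E11 : c.Y (.V 0) E11 = - (E01 + E01)
  V0E12 : c.Y (.V 0) E12 = - E02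
  V0E22 : c.Y (.V 0) E22 = 0
  V1E01 : c.Y (.V 1) E01 = E12
  V1E02 : c.Y (.V 1) E02 = E22 - E00
  V1E11 : c.Y (.V 1) E11 = 0
  V1E12 : c.Y (.V 1) E12 = - E01
  V1E22 : c.Y (.V 1) E22 = - (E02 + E02)
  RE01 : c.Y .R E01 = E02
  RE02 : c.Y .R E02 = - E01
  RE11 : c.Y .R E11 = E12 + E12
  RE12 : c.Y .R E12 = E22 - E11
  RE22 : c.Y .R E22 = - (E12 + E12)
  div1 : c.Y .X E01 + c.Y (.H 0) E11 + c.Y (.H 1) E12 = 0
  div2 : c.Y .X E02 + c.Y (.H 0) E12 + c.Y (.H 1) E22 = 0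
  XH0 : ∀ f : c.S, c.Y .X (c.Y (.H 0) f) - c.Y (.H 0) (c.Y .X f) =
    - (E22 * c.Y (.V 0) f - E12 * c.Y (.V 1) f) - E02 * c.Y .R f
  XH1 : ∀ f : c.S, c.Y .X (c.Y (.H 1) f) - c.Y (.H 1) (c.Y .X f) =
    - (- E12 * c.Y (.V 0) f + E11 * c.Y (.V 1) f) + E01 * c.Y .R f

/-! ### weak derivatives along `X` -/

section WXlemmas

variable {c : Cal I} {f g F F' G G' : A} {d e : Idx → A}

theorem wx_congr (h : WX c F F') (h1 : F = G) (h2 : F' = G') : WX c G G' := by
  subst h1; subst h2; exact h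

theorem wx_add (h : WX c F F') (h' : WX c G G') : WX c (F + G) (F' + G') := by
  intro s
  have h1 := h s
  have h2 := h' s
  rw [add_mul, add_mul, map_add, map_add, h1, h2]
  ring

theorem wx_sub (h : WX c F F') (h' : WX c G G') : WX c (F - G) (F' - G') := by
  intro s
  have h1 := h s
  have h2 := h' s
  rw [sub_mul, sub_mul, map_sub, map_sub, h1, h2]
  ring

theorem wx_jet (hf : Jet c f d) : WX c f (d .X) := by
  intro s
  have h := hf.int_mul (Jet.of_mem s) .X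
  rw [h, mul_comm]

theorem wx_mem_mul (s : c.S) (h : WX c F F') :
    WX c (s * F) ((c.Y .X s : c.S) * F + s * F') := by
  intro r
  have h1 := h (s * r)
  have h2 : ((c.Y .X (s * r) : c.S) : A) = s * (c.Y .X r : c.S) + r * (c.Y .X s : c.S) := by
    simp [Derivation.leibniz]
  rw [h2, mul_add, map_add] at h1
  have h3 : (s : A) * F * (c.Y .X r : c.S) = F * (s * (c.Y .X r : c.S)) := by ring
  have h4 : ((c.Y .X s : c.S) * F + s * F') * (r : A) =
    F * (r * (c.Y .X s : c.S)) + F' * ((s * r : c.S) : A) := by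
    simp only [MulMemClass.coe_mul]; ring
  rw [h3, h4, map_add]
  linarith

/-- product of a `C¹` function and a weakly differentiable function -/
theorem wx_jet_mul (hf : Jet c f d) (h : WX c F F') : WX c (f * F) (d .X * F + f * F') := by
  obtain ⟨u, hu, hu'⟩ := hf
  intro r
  have h1 : Tendsto (fun n => I ((u n : A) * F * (c.Y .X r : c.S))) atTop
      (𝓝 (I (f * F * (c.Y .X r : c.S)))) :=
    (I.continuous.tendsto _).comp ((hu.mul_const F).mul_const _)
  have h2 : Tendsto (fun n => - I (((c.Y .X (u n) : c.S) * F + (u n : A) * F') * r)) atTop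
      (𝓝 (- I ((d .X * F + f * F') * r))) :=
    ((I.continuous.tendsto _).comp ((((hu' .X).mul_const F).add
      (hu.mul_const F')).mul_const (r : A))).neg
  exact tendsto_nhds_unique h1 (h2.congr fun n => (wx_mem_mul (u n) h r).symm)

/-- commutator of two derivations applied to a smooth function, against a `C¹` function -/
theorem int_comm_of {k l : Idx} (hf : Jet c f d) (s : c.S) :
    I (f * ((c.Y k (c.Y l s) - c.Y l (c.Y k s) : c.S) : A)) =
      I (d l * (c.Y k s : c.S)) - I (d k * (c.Y l s : c.S)) := by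
  have h1 := hf.int_mul (Jet.of_mem (c.Y l s)) k
  have h2 := hf.int_mul (Jet.of_mem (c.Y k s)) l
  have h3 : ((c.Y k (c.Y l s) - c.Y l (c.Y k s) : c.S) : A) =
    (c.Y k (c.Y l s) : c.S) - (c.Y l (c.Y k s) : c.S) := by simp
  rw [h3, mul_sub, map_sub, h1, h2, mul_comm, mul_comm (c.Y k s : A)]
  ring

theorem wx_V (hf : Jet c f d) (hX : Jet c (d .X) e) (i : Fin 2) :
    WX c (d (.V i)) (e (.V i) - d (.H i)) := by
  intro s
  have h1 := int_comm_of (k := .V i) (l := .X) hf s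
  rw [c.VX i s] at h1
  have h2 := hf.int_mul (Jet.of_mem s) (.H i)
  have h3 := hX.int_mul (Jet.of_mem s) (.V i)
  rw [h2, h3] at h1
  have h4 : (e (.V i) - d (.H i)) * (s : A) = s * e (.V i) - s * d (.H i) := by ring
  rw [h4, map_sub]
  linarith

theorem wx_H0 (C : Curv c) (hf : Jet c f d) (hX : Jet c (d .X) e) :
    WX c (d (.H 0)) (e (.H 0) - (C.E22 * d (.V 0) - C.E12 * d (.V 1)) - C.E02 * d .R) := by
  intro s
  have h1 := int_comm_of (k := .X) (l := .H 0) hf s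
  rw [C.XH0 s] at h1
  have h3 := hX.int_mul (Jet.of_mem s) (.H 0)
  rw [h3] at h1
  have a1 := (hf.mul (Jet.of_mem C.E22)).int_mul (Jet.of_mem s) (.V 0)
  have a2 := (hf.mul (Jet.of_mem C.E12)).int_mul (Jet.of_mem s) (.V 1)
  have a3 := (hf.mul (Jet.of_mem C.E02)).int_mul (Jet.of_mem s) .R
  simp only [C.V0E22, C.V1E12, C.RE02] at a1 a2 a3
  have e1 : f * ((- (C.E22 * c.Y (.V 0) s - C.E12 * c.Y (.V 1) s) - C.E02 * c.Y .R s : c.S) : A)
      = - (f * C.E22 * (c.Y (.V 0) s : c.S)) + f * C.E12 * (c.Y (.V 1) s : c.S)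
        - f * C.E02 * (c.Y .R s : c.S) := by
    push_cast; ring
  rw [e1, map_sub, map_add, map_neg, a1, a2, a3] at h1
  have e2 : (e (.H 0) - (C.E22 * d (.V 0) - C.E12 * d (.V 1)) - C.E02 * d .R) * (s : A) =
      s * e (.H 0) - s * (f * ((0 : c.S) : A) + C.E22 * d (.V 0))
      + s * (f * ((- C.E01 : c.S) : A) + C.E12 * d (.V 1))
      - s * (f * ((- C.E01 : c.S) : A) + C.E02 * d .R) := by
    push_cast; ring
  rw [e2, map_sub, map_add, map_sub]
  linarith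

theorem wx_H1 (C : Curv c) (hf : Jet c f d) (hX : Jet c (d .X) e) :
    WX c (d (.H 1)) (e (.H 1) - (- C.E12 * d (.V 0) + C.E11 * d (.V 1)) + C.E01 * d .R) := by
  intro s
  have h1 := int_comm_of (k := .X) (l := .H 1) hf s
  rw [C.XH1 s] at h1
  have h3 := hX.int_mul (Jet.of_mem s) (.H 1)
  rw [h3] at h1
  have a1 := (hf.mul (Jet.of_mem C.E12)).int_mul (Jet.of_mem s) (.V 0)
  have a2 := (hf.mul (Jet.of_mem C.E11)).int_mul (Jet.of_mem s) (.V 1)
  have a3 := (hf.mul (Jet.of_mem C.E01)).int_mul (Jet.of_mem s) .R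
  simp only [C.V0E12, C.V1E11, C.RE01] at a1 a2 a3
  have e1 : f * ((- (- C.E12 * c.Y (.V 0) s + C.E11 * c.Y (.V 1) s) + C.E01 * c.Y .R s : c.S) : A)
      = f * C.E12 * (c.Y (.V 0) s : c.S) - f * C.E11 * (c.Y (.V 1) s : c.S)
        + f * C.E01 * (c.Y .R s : c.S) := by
    push_cast; ring
  rw [e1, map_add, map_sub, a1, a2, a3] at h1
  have e2 : (e (.H 1) - (- C.E12 * d (.V 0) + C.E11 * d (.V 1)) + C.E01 * d .R) * (s : A) =
      s * e (.H 1) + s * (f * ((- C.E02 : c.S) : A) + C.E12 * d (.V 0))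
      - s * (f * ((0 : c.S) : A) + C.E11 * d (.V 1))
      + s * (f * ((C.E02 : c.S) : A) + C.E01 * d .R) := by
    push_cast; ring
  rw [e2, map_add, map_sub, map_add]
  linarith

end WXlemmas

/-! ### the Codazzi equation -/

/-- the matrix `K` -/
def Curv.K {c : Cal I} (C : Curv c) (i j : Fin 2) : A :=
  if i = 0 then (if j = 0 then (C.E22 : A) else - (C.E12 : A))
  else (if j = 0 then - (C.E12 : A) else (C.E11 : A))

/-- the Codazzi defect, first component -/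
def c0 {c : Cal I} (C : Curv c) (U : Fin 2 → Fin 2 → A) (dU : Fin 2 → Fin 2 → Idx → A) : A :=
  (dU 0 1 (.H 1) + U 0 1 * dU 0 1 (.V 0) + U 1 1 * dU 0 1 (.V 1))
    - (dU 1 1 (.H 0) + U 0 0 * dU 1 1 (.V 0) + U 0 1 * dU 1 1 (.V 1)) - C.E01

/-- the Codazzi defect, second component -/
def c1 {c : Cal I} (C : Curv c) (U : Fin 2 → Fin 2 → A) (dU : Fin 2 → Fin 2 → Idx → A) : A :=
  (dU 0 1 (.H 0) + U 0 0 * dU 0 1 (.V 0) + U 0 1 * dU 0 1 (.V 1))
    - (dU 0 0 (.H 1) + U 0 1 * dU 0 0 (.V 0) + U 1 1 * dU 0 0 (.V 1)) - C.E02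

section Main

variable {c : Cal I} (C : Curv c) {U : Fin 2 → Fin 2 → A} {dU : Fin 2 → Fin 2 → Idx → A}

theorem wx_c01 (jU : ∀ i j, Jet c (U i j) (dU i j))
    (symU : U 1 0 = U 0 1) (ric : ∀ i j, dU i j .X = C.K i j - ∑ k, U i k * U k j)
    (R00 : dU 0 0 .R = 2 * U 0 1) (R01 : dU 0 1 .R = U 1 1 - U 0 0)
    (R11 : dU 1 1 .R = - 2 * U 0 1) :
    WX c (c0 C U dU) (- ((2 * (U 0 0 + U 1 1) - U 0 0) * c0 C U dU - U 0 1 * c1 C U dU)) ∧
    WX c (c1 C U dU) (- ((2 * (U 0 0 + U 1 1) - U 1 1) * c1 C U dU - U 0 1 * c0 C U dU)) := by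
  have r0 : dU 0 0 .X = C.E22 - (U 0 0 * U 0 0 + U 0 1 * U 0 1) := by
    rw [ric]; simp [Curv.K, Fin.sum_univ_two, symU]
  have r1 : dU 0 1 .X = ((- C.E12 : c.S) : A) - (U 0 0 * U 0 1 + U 0 1 * U 1 1) := by
    rw [ric]; simp [Curv.K, Fin.sum_univ_two]
  have r2 : dU 1 1 .X = C.E11 - (U 0 1 * U 0 1 + U 1 1 * U 1 1) := by
    rw [ric]; simp [Curv.K, Fin.sum_univ_two, symU]
  have J0 := jU 0 0
  have J1 := jU 0 1
  have J2 := jU 1 1
  have X0 := ((Jet.of_mem C.E22).sub ((J0.mul J0).add (J1.mul J1))).congr r0.symm (fun _ => rfl)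
  have X1 := ((Jet.of_mem (- C.E12)).sub ((J0.mul J1).add (J1.mul J2))).congr r1.symm
    (fun _ => rfl)
  have X2 := ((Jet.of_mem C.E11).sub ((J1.mul J1).add (J2.mul J2))).congr r2.symm (fun _ => rfl)
  -- curvature relations in `A`
  have e1 : ((c.Y (.V 0) C.E12 : c.S) : A) = - C.E02 := by rw [C.V0E12]; simp
  have e2 : ((c.Y (.V 1) C.E12 : c.S) : A) = - C.E01 := by rw [C.V1E12]; simp
  have e3 : ((c.Y (.V 0) C.E11 : c.S) : A) = - (C.E01 + C.E01) := by rw [C.V0E11]; simp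
  have e4 : ((c.Y (.V 1) C.E11 : c.S) : A) = 0 := by rw [C.V1E11]; simp
  have e5 : ((c.Y (.V 0) C.E22 : c.S) : A) = 0 := by rw [C.V0E22]; simp
  have e6 : ((c.Y (.V 1) C.E22 : c.S) : A) = - (C.E02 + C.E02) := by rw [C.V1E22]; simp
  have e7 : ((c.Y .X C.E01 : c.S) : A) = - (c.Y (.H 0) C.E11 : c.S) - (c.Y (.H 1) C.E12 : c.S) := by
    have h := congrArg (fun s : c.S => (s : A)) C.div1
    simp only [AddMemClass.coe_add, ZeroMemClass.coe_zero] at h
    linear_combination h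
  have e8 : ((c.Y .X C.E02 : c.S) : A) = - (c.Y (.H 0) C.E12 : c.S) - (c.Y (.H 1) C.E22 : c.S) := by
    have h := congrArg (fun s : c.S => (s : A)) C.div2
    simp only [AddMemClass.coe_add, ZeroMemClass.coe_zero] at h
    linear_combination h
  constructor
  · refine wx_congr (wx_sub (wx_sub (wx_add (wx_add (wx_H1 C J1 X1)
      (wx_jet_mul J1 (wx_V J1 X1 0))) (wx_jet_mul J2 (wx_V J1 X1 1)))
      (wx_add (wx_add (wx_H0 C J2 X2) (wx_jet_mul J0 (wx_V J2 X2 0)))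
      (wx_jet_mul J1 (wx_V J2 X2 1)))) (wx_jet (Jet.of_mem C.E01))) rfl ?_
    simp only [map_neg, NegMemClass.coe_neg, e1, e2, e3, e4, e7, r0, r1, r2, R01, R11, c0, c1]
    ring
  · refine wx_congr (wx_sub (wx_sub (wx_add (wx_add (wx_H0 C J1 X1)
      (wx_jet_mul J0 (wx_V J1 X1 0))) (wx_jet_mul J1 (wx_V J1 X1 1)))
      (wx_add (wx_add (wx_H1 C J0 X0) (wx_jet_mul J1 (wx_V J0 X0 0)))
      (wx_jet_mul J2 (wx_V J0 X0 1)))) (wx_jet (Jet.of_mem C.E02))) rfl ?_
    simp only [map_neg, NegMemClass.coe_neg, e1, e2, e5, e6, e8, r0, r1, r2, R00, R01, c0, c1]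
    ring

/-- the integral identity: `∫ ⟨(2t - U) c, c⟩ = 0` for the Codazzi defect `c` -/
theorem codazzi_integral (jU : ∀ i j, Jet c (U i j) (dU i j))
    (symU : U 1 0 = U 0 1) (ric : ∀ i j, dU i j .X = C.K i j - ∑ k, U i k * U k j)
    (R00 : dU 0 0 .R = 2 * U 0 1) (R01 : dU 0 1 .R = U 1 1 - U 0 0)
    (R11 : dU 1 1 .R = - 2 * U 0 1)
    (wpx : ∀ F F' : A, WX c F F' → I (F * F') = 0) :
    I ((2 * (U 0 0 + U 1 1) - U 0 0) * (c0 C U dU * c0 C U dU)
      - 2 * (U 0 1 * (c0 C U dU * c1 C U dU))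
      + (2 * (U 0 0 + U 1 1) - U 1 1) * (c1 C U dU * c1 C U dU)) = 0 := by
  obtain ⟨h0, h1⟩ := wx_c01 C jU symU ric R00 R01 R11
  have w0 := wpx _ _ h0
  have w1 := wpx _ _ h1
  have e : I ((2 * (U 0 0 + U 1 1) - U 0 0) * (c0 C U dU * c0 C U dU)
      - 2 * (U 0 1 * (c0 C U dU * c1 C U dU))
      + (2 * (U 0 0 + U 1 1) - U 1 1) * (c1 C U dU * c1 C U dU)) = - (0 + 0) := by
    have key := congrArg₂ (· + ·) w0 w1
    simp only [← map_add] at key
    rw [← key, ← map_neg]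
    congr 1; ring
  rw [e]; ring

end Main

end Vale.Agent.P207.Q.H892
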