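import Mathlib

/-!
# P207: integration by parts for measure preserving flows
-/

open scoped Topology ENNReal
open MeasureTheory Set Filter

noncomputable section

set_option linter.unusedSectionVars false

namespace Vale.Agent.P207.Q.H892

section Div

variable {P : Type*} [TopologicalSpace P] [CompactSpace P] [SecondCountableTopology P]
  [MeasurableSpace P] [BorelSpace P] {m : Measure P} [IsFiniteMeasure m] {Φ : ℝ → P → P}

/-- `f'` is the derivative of `f` along the flow `Φ` -/
def FlowDeriv (Φ : ℝ → P → P) (f f' : P → ℝ) : Prop :=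
  ∀ p t, HasDerivAt (fun s => f (Φ s p)) (f' (Φ t p)) t

/-- for a flow it is enough to know the derivative at time `0` -/
theorem flowDeriv_of_zero (hadd : ∀ s t p, Φ (s + t) p = Φ s (Φ t p))
    {f f' : P → ℝ} (h : ∀ p, HasDerivAt (fun s => f (Φ s p)) (f' p) 0) : FlowDeriv Φ f f' := by
  intro p t
  have h1 := h (Φ t p)
  have h2 : HasDerivAt (fun s : ℝ => s - t) 1 t := (hasDerivAt_id t).sub_const t
  have h3 : HasDerivAt (fun s => f (Φ s (Φ t p))) (f' (Φ t p)) (t - t) := by
    rw [sub_self]; exact h1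
  have h4 := HasDerivAt.comp (h₂ := fun s => f (Φ s (Φ t p))) (h := fun s => s - t) t h3 h2
  rw [mul_one] at h4
  refine h4.congr_of_eventuallyEq (Eventually.of_forall fun s => ?_)
  change f (Φ s p) = f (Φ (s - t) (Φ t p))
  rw [← hadd, sub_add_cancel]

/-- the integral of a derivative along a measure preserving flow vanishes -/
theorem integral_flowDeriv (hmp : ∀ t, MeasurePreserving (Φ t) m m)
    (hΦ : Continuous (fun q : ℝ × P => Φ q.1 q.2)) {f f' : P → ℝ} (hf : Continuous f)
    (hf' : Continuous f') (hd : FlowDeriv Φ f f') : ∫ p, f' p ∂m = 0 := by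
  have hct : ∀ t, Continuous (Φ t) := fun t => hΦ.comp (continuous_const.prodMk continuous_id)
  have hcomp : ∀ (h : P → ℝ), Continuous h → ∀ t, ∫ p, h (Φ t p) ∂m = ∫ p, h p ∂m := by
    intro h hh t
    have h2 := integral_map (μ := m) (hct t).measurable.aemeasurable
      (f := h) hh.aestronglyMeasurable
    rw [(hmp t).map_eq] at h2
    exact h2.symm
  have hint : ∀ (h : P → ℝ), Continuous h → Integrable h m := fun h hh =>
    hh.integrable_of_hasCompactSupport (HasCompactSupport.of_compactSpace _)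
  have h1 : ∀ p, ∫ s in (0 : ℝ)..1, f' (Φ s p) = f (Φ 1 p) - f (Φ 0 p) := by
    intro p
    refine intervalIntegral.integral_eq_sub_of_hasDerivAt (fun s _ => hd p s) ?_
    have hc : Continuous (fun s => f' (Φ s p)) :=
      hf'.comp (hΦ.comp (continuous_id.prodMk continuous_const))
    exact hc.intervalIntegrable _ _
  have h2 : ∫ p, (∫ s in (0 : ℝ)..1, f' (Φ s p)) ∂m = 0 := by
    simp only [h1]
    refine (integral_sub (hint _ (hf.comp (hct 1))) (hint _ (hf.comp (hct 0)))).trans ?_
    change (∫ p, f (Φ 1 p) ∂m) - ∫ p, f (Φ 0 p) ∂m = 0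
    rw [hcomp f hf, hcomp f hf, sub_self]
  have h3 : ∫ p, (∫ s in (0 : ℝ)..1, f' (Φ s p)) ∂m = ∫ s in (0 : ℝ)..1, (∫ p, f' (Φ s p) ∂m) := by
    simp only [intervalIntegral.integral_of_le zero_le_one]
    refine (integral_integral_swap (f := fun (p : P) (s : ℝ) => f' (Φ s p)) ?_)
    have hc : Continuous (fun q : P × ℝ => f' (Φ q.2 q.1)) :=
      hf'.comp (hΦ.comp (continuous_snd.prodMk continuous_fst))
    obtain ⟨C, hC⟩ := isCompact_univ.exists_bound_of_continuousOn (f := f') hf'.continuousOn
    have hfin : IsFiniteMeasure (volume.restrict (Ioc (0 : ℝ) 1)) := ⟨by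
      rw [Measure.restrict_apply_univ]; simp⟩
    have hm : AEStronglyMeasurable (fun q : P × ℝ => f' (Φ q.2 q.1))
        (m.prod (volume.restrict (Ioc (0 : ℝ) 1))) := hc.aestronglyMeasurable
    exact Integrable.of_bound hm C (Eventually.of_forall fun q => hC _ (mem_univ _))
  rw [h3] at h2
  simp only [hcomp f' hf', intervalIntegral.integral_const, sub_zero, one_smul] at h2
  exact h2

/-- products -/
theorem FlowDeriv.mul {f f' g g' : P → ℝ} (hf : FlowDeriv Φ f f') (hg : FlowDeriv Φ g g') :
    FlowDeriv Φ (fun p => f p * g p) (fun p => f' p * g p + f p * g' p) :=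
  fun p t => (hf p t).mul (hg p t)

theorem FlowDeriv.add {f f' g g' : P → ℝ} (hf : FlowDeriv Φ f f') (hg : FlowDeriv Φ g g') :
    FlowDeriv Φ (fun p => f p + g p) (fun p => f' p + g' p) :=
  fun p t => (hf p t).add (hg p t)

theorem FlowDeriv.sub {f f' g g' : P → ℝ} (hf : FlowDeriv Φ f f') (hg : FlowDeriv Φ g g') :
    FlowDeriv Φ (fun p => f p - g p) (fun p => f' p - g' p) :=
  fun p t => (hf p t).sub (hg p t)

theorem FlowDeriv.const_mul (c : ℝ) {f f' : P → ℝ} (hf : FlowDeriv Φ f f') :
    FlowDeriv Φ (fun p => c * f p) (fun p => c * f' p) :=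
  fun p t => (hf p t).const_mul c

/-- integration by parts -/
theorem integral_flowDeriv_mul (hmp : ∀ t, MeasurePreserving (Φ t) m m)
    (hΦ : Continuous (fun q : ℝ × P => Φ q.1 q.2)) {f f' g g' : P → ℝ} (hf : Continuous f)
    (hf' : Continuous f') (hg : Continuous g) (hg' : Continuous g') (hd : FlowDeriv Φ f f')
    (hdg : FlowDeriv Φ g g') : ∫ p, f' p * g p ∂m = - ∫ p, f p * g' p ∂m := by
  have hint : ∀ (h : P → ℝ), Continuous h → Integrable h m := fun h hh =>
    hh.integrable_of_hasCompactSupport (HasCompactSupport.of_compactSpace _)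
  have h1 := integral_flowDeriv hmp hΦ (hf.mul hg) ((hf'.mul hg).add (hf.mul hg')) (hd.mul hdg)
  have h2 : (∫ p, f' p * g p ∂m) + ∫ p, f p * g' p ∂m = 0 := by
    refine Eq.trans ?_ h1
    exact (integral_add (hint _ (hf'.mul hg)) (hint _ (hf.mul hg'))).symm
  linarith

end Div

end Vale.Agent.P207.Q.H892
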