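import Mathlib

/-!
# P207, block A7: averages over the orthogonal group
-/

open scoped Topology ENNReal
open MeasureTheory Set Filter

noncomputable section

namespace Vale.Agent.P207.Q.H892

/-- the orthogonal group -/
abbrev OG (n : ℕ) : Type := Matrix.orthogonalGroup (Fin n) ℝ

/-- the euclidean space -/
abbrev E' (n : ℕ) : Type := EuclideanSpace ℝ (Fin n)

variable {n : ℕ}

theorem sum_sq_row (A : OG n) (i : Fin n) : ∑ j, A.1 i j ^ 2 = 1 := by
  have h := (Matrix.mem_orthogonalGroup_iff (Fin n) ℝ).1 A.2
  have h1 := congrFun (congrFun h i) i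
  rw [Matrix.mul_apply, Matrix.one_apply_eq] at h1
  rw [← h1]
  refine Finset.sum_congr rfl fun j _ => ?_
  simp [Matrix.transpose_apply, pow_two]

theorem col_orth (A : OG n) (i j : Fin n) :
    ∑ k, A.1 k i * A.1 k j = if i = j then 1 else 0 := by
  have h := (Matrix.mem_orthogonalGroup_iff' (Fin n) ℝ).1 A.2
  have h1 := congrFun (congrFun h i) j
  rw [Matrix.mul_apply, Matrix.one_apply] at h1
  rw [← h1]
  refine Finset.sum_congr rfl fun k _ => ?_
  simp [Matrix.transpose_apply]

theorem abs_entry_le (A : OG n) (i j : Fin n) : |A.1 i j| ≤ 1 := by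
  have h := sum_sq_row A i
  have h1 : A.1 i j ^ 2 ≤ ∑ j, A.1 i j ^ 2 :=
    Finset.single_le_sum (f := fun j => A.1 i j ^ 2) (fun k _ => sq_nonneg _) (Finset.mem_univ j)
  rw [h] at h1
  exact (sq_le_one_iff_abs_le_one _).1 h1

instance instCompactOG : CompactSpace (OG n) := by
  have h1 : IsCompact (univ.pi fun _ : Fin n => univ.pi fun _ : Fin n => Icc (-1 : ℝ) 1) :=
    isCompact_univ_pi fun _ => isCompact_univ_pi fun _ => isCompact_Icc
  have h2 : IsClosed (unitary (Matrix (Fin n) (Fin n) ℝ) : Set (Matrix (Fin n) (Fin n) ℝ)) :=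
    isClosed_unitary
  have h3 : IsCompact (unitary (Matrix (Fin n) (Fin n) ℝ) : Set (Matrix (Fin n) (Fin n) ℝ)) := by
    refine IsCompact.of_isClosed_subset h1 h2 ?_
    intro A hA i _ j _
    exact abs_le.1 (abs_entry_le ⟨A, hA⟩ i j)
  exact isCompact_iff_compactSpace.1 h3

instance instMeasOG : MeasurableSpace (OG n) := borel _

instance instBorelOG : BorelSpace (OG n) := ⟨rfl⟩

instance instSecondOG : SecondCountableTopology (OG n) := by
  have : SecondCountableTopology (Matrix (Fin n) (Fin n) ℝ) :=
    inferInstanceAs (SecondCountableTopology (Fin n → Fin n → ℝ))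
  exact TopologicalSpace.Subtype.secondCountableTopology _

instance instT2OG : T2Space (OG n) :=
  inferInstanceAs (T2Space
    (unitary (Matrix (Fin n) (Fin n) ℝ) : Set (Matrix (Fin n) (Fin n) ℝ)))

/-! ### Haar probability measure of a compact group -/

section Haar

variable (G : Type*) [Group G] [TopologicalSpace G] [IsTopologicalGroup G] [CompactSpace G]
  [MeasurableSpace G] [BorelSpace G]

/-- the Haar probability measure -/
def haarP : Measure G := Measure.haarMeasure ⊤

instance : (haarP G).IsHaarMeasure := by unfold haarP; infer_instance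

instance instProbHaarP : IsProbabilityMeasure (haarP G) := by
  refine ⟨?_⟩
  have h := Measure.haarMeasure_self (G := G) (K₀ := ⊤)
  simpa [haarP] using h

instance instRightHaarP : (haarP G).IsMulRightInvariant := by
  refine ⟨fun g => ?_⟩
  have : (Measure.map (· * g) (haarP G)).IsMulLeftInvariant := inferInstance
  have h := Measure.isMulInvariant_eq_smul_of_compactSpace (Measure.map (· * g) (haarP G)) (haarP G)
  have h1 : (Measure.map (· * g) (haarP G)) univ = 1 := by
    rw [Measure.map_apply (measurable_mul_const g) MeasurableSet.univ, preimage_univ, measure_univ]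
  rw [h] at h1
  rw [Measure.smul_apply, measure_univ] at h1
  have h2 : Measure.haarScalarFactor (Measure.map (· * g) (haarP G)) (haarP G) = 1 := by
    have h3 : ((Measure.haarScalarFactor (Measure.map (· * g) (haarP G)) (haarP G) : NNReal) : ℝ≥0∞)
        = 1 := by
      simpa [ENNReal.smul_def] using h1
    exact_mod_cast h3
  rw [h, h2, one_smul]

end Haar

/-! ### the action on the euclidean space -/

/-- the action of an orthogonal matrix on the euclidean space -/
def act (A : OG n) (u : E' n) : E' n := WithLp.toLp 2 (A.1.mulVec u.ofLp)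

@[simp] theorem act_apply (A : OG n) (u : E' n) (i : Fin n) : act A u i = ∑ j, A.1 i j * u j := rfl

theorem act_mul (A B : OG n) (u : E' n) : act (A * B) u = act A (act B u) := by
  ext i
  change ((A.1 * B.1).mulVec u.ofLp) i = (A.1.mulVec (B.1.mulVec u.ofLp)) i
  rw [Matrix.mulVec_mulVec]

theorem act_one (u : E' n) : act (1 : OG n) u = u := by
  ext i
  change ((1 : Matrix (Fin n) (Fin n) ℝ).mulVec u.ofLp) i = u i
  rw [Matrix.one_mulVec]

theorem act_smul (A : OG n) (c : ℝ) (u : E' n) : act A (c • u) = c • act A u := by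
  ext i
  simp only [act_apply, PiLp.smul_apply, smul_eq_mul, Finset.mul_sum]
  exact Finset.sum_congr rfl fun j _ => by ring

theorem act_add (A : OG n) (u v : E' n) : act A (u + v) = act A u + act A v := by
  ext i
  simp only [act_apply, PiLp.add_apply, mul_add, Finset.sum_add_distrib]

theorem continuous_act : Continuous (fun q : OG n × E' n => act q.1 q.2) := by
  have h : Continuous (fun q : OG n × E' n => fun i => ∑ j, q.1.1 i j * q.2 j) := by
    refine continuous_pi fun i => continuous_finsetSum _ fun j _ => ?_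
    refine Continuous.mul ?_ ?_
    · have h1 : Continuous (fun q : OG n × E' n => q.1.1) :=
        continuous_subtype_val.comp continuous_fst
      exact (continuous_apply j).comp ((continuous_apply i).comp h1)
    · exact (continuous_apply j).comp ((PiLp.continuous_ofLp 2 _).comp continuous_snd)
  exact (PiLp.continuous_toLp 2 _).comp h

/-- the linear isometry of an orthogonal matrix -/
theorem norm_act (A : OG n) (u : E' n) : ‖act A u‖ = ‖u‖ := by
  have h : ‖act A u‖ ^ 2 = ‖u‖ ^ 2 := by
    rw [EuclideanSpace.norm_sq_eq, EuclideanSpace.norm_sq_eq]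
    simp only [act_apply, Real.norm_eq_abs, sq_abs]
    have h1 : ∀ i, (∑ j, A.1 i j * u j) ^ 2 = ∑ j, ∑ k, (A.1 i j * A.1 i k) * (u j * u k) := by
      intro i
      rw [pow_two, Finset.sum_mul_sum]
      refine Finset.sum_congr rfl fun j _ => Finset.sum_congr rfl fun k _ => by ring
    simp only [h1]
    rw [Finset.sum_comm]
    have h2 : ∀ j, ∑ i, ∑ k, (A.1 i j * A.1 i k) * (u j * u k) = u j ^ 2 := by
      intro j
      rw [Finset.sum_comm]
      have h3 : ∀ k, ∑ i, (A.1 i j * A.1 i k) * (u j * u k) = if j = k then u j * u k else 0 := by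
        intro k
        rw [← Finset.sum_mul, col_orth A j k]
        split_ifs <;> simp
      simp only [h3, Finset.sum_ite_eq, Finset.mem_univ, if_true]
      ring
    simp only [h2]
  have h0 := congrArg Real.sqrt h
  rwa [Real.sqrt_sq (norm_nonneg _), Real.sqrt_sq (norm_nonneg _)] at h0

/-- the linear isometry equivalence of an orthogonal matrix -/
def actL (A : OG n) : E' n ≃ₗᵢ[ℝ] E' n where
  toFun := act A
  invFun := act A⁻¹
  left_inv u := by rw [← act_mul, inv_mul_cancel, act_one]
  right_inv u := by rw [← act_mul, mul_inv_cancel, act_one]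
  map_add' := act_add A
  map_smul' := act_smul A
  norm_map' := norm_act A

@[simp] theorem actL_apply (A : OG n) (u : E' n) : actL A u = act A u := rfl

/-- every linear isometry is given by an orthogonal matrix -/
theorem exists_act_eq (f : E' n ≃ₗᵢ[ℝ] E' n) : ∃ A : OG n, ∀ u, act A u = f u := by
  set A : Matrix (Fin n) (Fin n) ℝ := Matrix.of fun i j => f (EuclideanSpace.single j 1) i with hA
  have hmul : ∀ (u : E' n) i, ∑ j, A i j * u j = f u i := by
    intro u i
    have hu : u = ∑ j, u j • EuclideanSpace.single j (1 : ℝ) := by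
      ext k
      simp [Finset.sum_apply, Pi.single_apply]
    conv_rhs => rw [hu, map_sum]
    simp only [map_smul, smul_eq_mul, WithLp.ofLp_sum, Finset.sum_apply,
      WithLp.ofLp_smul, Pi.smul_apply]
    exact Finset.sum_congr rfl fun j _ => by simp [hA, mul_comm]
  have hort : A ∈ Matrix.orthogonalGroup (Fin n) ℝ := by
    rw [Matrix.mem_orthogonalGroup_iff']
    ext i j
    rw [Matrix.mul_apply, Matrix.one_apply]
    have h1 := f.inner_map_map (EuclideanSpace.single i (1 : ℝ)) (EuclideanSpace.single j (1 : ℝ))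
    rw [PiLp.inner_apply] at h1
    simp only [RCLike.inner_apply, conj_trivial] at h1
    have h2 : inner ℝ (EuclideanSpace.single i (1 : ℝ)) (EuclideanSpace.single j (1 : ℝ) : E' n)
        = if i = j then 1 else 0 := by
      simp [EuclideanSpace.inner_single_left]
    rw [h2] at h1
    rw [← h1]
    refine Finset.sum_congr rfl fun k _ => ?_
    simp [hA, Matrix.transpose_apply, mul_comm]
  refine ⟨⟨A, hort⟩, fun u => ?_⟩
  ext i
  exact hmul u i

/-- transitivity on spheres -/
theorem exists_act (u v : E' n) (h : ‖u‖ = ‖v‖) : ∃ A : OG n, act A u = v := by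
  obtain ⟨A, hA⟩ := exists_act_eq (Submodule.reflection (Submodule.span ℝ {u - v})ᗮ)
  refine ⟨A, ?_⟩
  rw [hA]
  exact Submodule.reflection_sub h

/-! ### the average over the group is the average over the ball -/

theorem integral_act_const {b : E' n → ℝ} {u v : E' n} (h : ‖u‖ = ‖v‖) :
    ∫ A, b (act A u) ∂haarP (OG n) = ∫ A, b (act A v) ∂haarP (OG n) := by
  obtain ⟨B, hB⟩ := exists_act v u h.symm
  have h1 := integral_mul_right_eq_self (μ := haarP (OG n)) (fun A => b (act A v)) B
  rw [← h1]
  refine integral_congr_ae (Eventually.of_forall fun A => ?_)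
  change b (act A u) = b (act (A * B) v)
  rw [act_mul, hB]

theorem ball_avg [NeZero n] {b : E' n → ℝ} (hb : Measurable b) {C : ℝ} (hC : ∀ w, |b w| ≤ C)
    {u : E' n} (hu : ‖u‖ = 1) :
    ∫ A, b (act A u) ∂haarP (OG n) =
      (∫ w in Metric.ball (0 : E' n) 1, b (‖w‖⁻¹ • w)) / volume.real (Metric.ball (0 : E' n) 1) := by
  set B := Metric.ball (0 : E' n) 1 with hBdef
  have hBpos : 0 < volume.real B := by
    refine ENNReal.toReal_pos (Metric.measure_ball_pos _ _ one_pos).ne' measure_ball_lt_top.ne
  have h1 : ∀ A : OG n, ∫ w in B, b (act A (‖w‖⁻¹ • w)) = ∫ w in B, b (‖w‖⁻¹ • w) := by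
    intro A
    have hmp : MeasurePreserving (actL A) volume volume := (actL A).measurePreserving
    have h2 := hmp.setIntegral_preimage_emb (actL A).toHomeomorph.measurableEmbedding
      (fun w => b (‖w‖⁻¹ • w)) B
    have h3 : (actL A) ⁻¹' B = B := by
      ext w
      simp [hBdef]
    rw [h3] at h2
    rw [← h2]
    refine integral_congr_ae (Eventually.of_forall fun w => ?_)
    change b (act A (‖w‖⁻¹ • w)) = b (‖act A w‖⁻¹ • act A w)
    rw [norm_act, act_smul]
  have hm : Measurable (fun q : OG n × E' n => b (act q.1 (‖q.2‖⁻¹ • q.2))) := by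
    have hq : Measurable (fun q : OG n × E' n => (q.1, ‖q.2‖⁻¹ • q.2)) :=
      Measurable.prodMk measurable_fst (Measurable.smul (measurable_snd.norm.inv) measurable_snd)
    exact hb.comp (continuous_act.measurable.comp hq)
  have hint : Integrable (fun q : OG n × E' n => b (act q.1 (‖q.2‖⁻¹ • q.2)))
      ((haarP (OG n)).prod (volume.restrict B)) := by
    have : IsFiniteMeasure (volume.restrict B) := ⟨by
      rw [Measure.restrict_apply_univ]; exact measure_ball_lt_top⟩
    refine Integrable.of_bound hm.aestronglyMeasurable C (Eventually.of_forall fun q => ?_)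
    exact hC _
  have h4 : ∫ A, (∫ w in B, b (act A (‖w‖⁻¹ • w))) ∂haarP (OG n) =
      ∫ w in B, (∫ A, b (act A (‖w‖⁻¹ • w)) ∂haarP (OG n)) := by
    exact integral_integral_swap (f := fun A w => b (act A (‖w‖⁻¹ • w))) hint
  have h5 : ∫ w in B, (∫ A, b (act A (‖w‖⁻¹ • w)) ∂haarP (OG n)) =
      ∫ w in B, (∫ A, b (act A u) ∂haarP (OG n)) := by
    refine integral_congr_ae (ae_restrict_of_ae ?_)
    have h6 : ∀ᵐ w : E' n, w ≠ 0 := by
      rw [ae_iff]; simp
    filter_upwards [h6] with w hw
    refine integral_act_const ?_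
    rw [norm_smul, norm_inv, norm_norm, inv_mul_cancel₀ (norm_ne_zero_iff.2 hw), hu]
  rw [h5] at h4
  simp only [h1, integral_const, smul_eq_mul, probReal_univ, one_mul,
    measureReal_restrict_apply MeasurableSet.univ, univ_inter] at h4
  rw [h4]
  field_simp

end Vale.Agent.P207.Q.H892
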