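import Vale.Agent.P207.Q.H892.Cod

/-!
# P207: the equation along the flow of the vertical divergence `p_i = Σ_j V_j U_ij`

From the Riccati equation and the contracted Codazzi equation, `X p_i = - D_i t - Σ_j U_ij p_j`
(weakly), where `t = tr U` and `D_i = H_i + Σ_l U_il V_l`.
-/

open Filter Topology MeasureTheory

noncomputable section

namespace Vale.Agent.P207.Q.H892

open Vale.Agent.P207.Q.H413

section Abs

variable {A : Type*} [NormedCommRing A] [NormedAlgebra ℝ A] {I : A →L[ℝ] ℝ}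
  {c : Cal I} (C : Curv c) {U : Fin 2 → Fin 2 → A} {dU : Fin 2 → Fin 2 → Idx → A}

theorem wx_p_abs (jU : ∀ i j, Jet c (U i j) (dU i j)) (symU : U 1 0 = U 0 1)
    (symd : ∀ k, dU 1 0 k = dU 0 1 k)
    (ric : ∀ i j, dU i j .X = C.K i j - ∑ k, U i k * U k j)
    (h0 : c0 C U dU = 0) (h1 : c1 C U dU = 0) (i : Fin 2) :
    WX c (∑ j, dU i j (.V j))
      (- ((dU 0 0 (.H i) + dU 1 1 (.H i)) + ∑ l, U i l * (dU 0 0 (.V l) + dU 1 1 (.V l)))
        - ∑ j, U i j * ∑ k, dU j k (.V k)) := by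
  have r0 : dU 0 0 .X = C.E22 - (U 0 0 * U 0 0 + U 0 1 * U 0 1) := by
    rw [ric]; simp [Curv.K, Fin.sum_univ_two, symU]
  have r1 : dU 0 1 .X = ((- C.E12 : c.S) : A) - (U 0 0 * U 0 1 + U 0 1 * U 1 1) := by
    rw [ric]; simp [Curv.K, Fin.sum_univ_two]
  have r2 : dU 1 1 .X = C.E11 - (U 0 1 * U 0 1 + U 1 1 * U 1 1) := by
    rw [ric]; simp [Curv.K, Fin.sum_univ_two, symU]
  have J0 := jU 0 0
  have J1 := jU 0 1
  have J2 := jU 1 1
  have X0 := ((Jet.of_mem C.E22).sub ((J0.mul J0).add (J1.mul J1))).congr r0.symm (fun _ => rfl)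
  have X1 := ((Jet.of_mem (- C.E12)).sub ((J0.mul J1).add (J1.mul J2))).congr r1.symm
    (fun _ => rfl)
  have X2 := ((Jet.of_mem C.E11).sub ((J1.mul J1).add (J2.mul J2))).congr r2.symm (fun _ => rfl)
  have e1 : ((c.Y (.V 0) C.E12 : c.S) : A) = - C.E02 := by rw [C.V0E12]; simp
  have e2 : ((c.Y (.V 1) C.E12 : c.S) : A) = - C.E01 := by rw [C.V1E12]; simp
  have e4 : ((c.Y (.V 1) C.E11 : c.S) : A) = 0 := by rw [C.V1E11]; simp
  have e5 : ((c.Y (.V 0) C.E22 : c.S) : A) = 0 := by rw [C.V0E22]; simp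
  rw [c0] at h0
  rw [c1] at h1
  fin_cases i
  · refine wx_congr (wx_add (wx_V J0 X0 0) (wx_V J1 X1 1)) (by simp [Fin.sum_univ_two]) ?_
    simp only [map_neg, NegMemClass.coe_neg, e2, e5, Fin.sum_univ_two, Fin.zero_eta, symd]
    linear_combination (-1 : A) * h0
  · refine wx_congr (wx_add (wx_V J1 X1 0) (wx_V J2 X2 1))
      (by simp [Fin.sum_univ_two, symd]) ?_
    simp only [map_neg, NegMemClass.coe_neg, e1, e4, Fin.sum_univ_two, Fin.mk_one, symd, symU]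
    linear_combination (-1 : A) * h1

end Abs

variable {P : Type*} [TopologicalSpace P] [CompactSpace P] [MeasurableSpace P] [BorelSpace P]
  {m : Measure P} [IsFiniteMeasure m]

/-- **Equation of `p_i = Σ_j V_j U_ij` along the flow**: `X p_i = - D_i t - Σ_j U_ij p_j`
weakly. -/
theorem wx_p [m.IsOpenPosMeasure] {c : Cal (intL m)} (C : Curv c)
    {U : Fin 2 → Fin 2 → C(P, ℝ)} {dU : Fin 2 → Fin 2 → Idx → C(P, ℝ)}
    (jU : ∀ i j, Jet c (U i j) (dU i j)) (symU : U 1 0 = U 0 1) (symd : ∀ k, dU 1 0 k = dU 0 1 k)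
    (ric : ∀ i j, dU i j .X = C.K i j - ∑ k, U i k * U k j)
    (R00 : dU 0 0 .R = 2 * U 0 1) (R01 : dU 0 1 .R = U 1 1 - U 0 0)
    (R11 : dU 1 1 .R = - 2 * U 0 1)
    (wpx : ∀ F F' : C(P, ℝ), WX c F F' → intL m (F * F') = 0)
    {lam : ℝ} (hlam : 0 < lam)
    (hpos : ∀ x a b, lam * (a ^ 2 + b ^ 2) ≤ U 0 0 x * a ^ 2 + 2 * U 0 1 x * (a * b) +
      U 1 1 x * b ^ 2) (i : Fin 2) :
    WX c (∑ j, dU i j (.V j))
      (- ((dU 0 0 (.H i) + dU 1 1 (.H i)) + ∑ l, U i l * (dU 0 0 (.V l) + dU 1 1 (.V l)))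
        - ∑ j, U i j * ∑ k, dU j k (.V k)) :=
  let h := czero_of_curv C jU symU ric R00 R01 R11 wpx hlam hpos
  wx_p_abs C jU symU symd ric h.1 h.2 i

end Vale.Agent.P207.Q.H892
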